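import Vale.Agent.Lib.P327.Defs
import Vale.Agent.Lib.P327.EZero

/-!
# Bi-uniformly `E₀`-invariant homeomorphisms of Cantor space induce only the trivial
automorphism of the Turing degrees
-/

namespace Vale.Agent.Results.P327.E0Homeo

open Vale.Agent.Lib.P327

theorem turingLE_iff (X Y : ℕ → Bool) : TuringLE X Y ↔ TR X Y :=
  RecursiveIn.iff_nat

theorem degT_le_iff (X Y : ℕ → Bool) : degT X ≤ degT Y ↔ TuringLE X Y :=
  toAntisymmetrization_le_toAntisymmetrization_iff

/-- If an automorphism `π` of the partial order of the Turing degrees is induced by a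
homeomorphism `F` of Cantor space such that `F` and its inverse are uniformly `E₀`-invariant,
then `π` is the identity. -/
theorem result (π : DegT ≃o DegT) (F : (ℕ → Bool) ≃ₜ (ℕ → Bool))
    (hF : UniformlyE0Invariant F) (hF' : UniformlyE0Invariant F.symm)
    (hπ : ∀ X : ℕ → Bool, π (degT X) = degT (F X)) : ∀ d : DegT, π d = d := by
  have hmono : ∀ X Y, TR X Y ↔ TR (F X) (F Y) := by
    intro X Y
    rw [← turingLE_iff, ← turingLE_iff, ← degT_le_iff, ← degT_le_iff, ← hπ, ← hπ]
    exact (π.le_iff_le).symm
  have key : ∀ X : ℕ → Bool, π (degT X) = degT X := by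
    intro X
    have h := main_E0 F hF hF' hmono X
    rw [hπ]
    exact le_antisymm ((degT_le_iff _ _).2 ((turingLE_iff _ _).2 h.1))
      ((degT_le_iff _ _).2 ((turingLE_iff _ _).2 h.2))
  intro d
  induction d using Quotient.inductionOn with
  | _ X => exact key X

end Vale.Agent.Results.P327.E0Homeo
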