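import Vale.Agent.Lib.P327.Defs
import Vale.Agent.Lib.P327.EZero

/-!
# Rigidity of the Turing degrees for automorphisms induced by bi-uniformly `E₀`-invariant
homeomorphisms of Cantor space, together with the facts that this class of homeomorphisms contains
every map induced by a permutation of `ℕ` and every translation `X ↦ X Δ S`
-/

namespace Vale.Agent.Results.P327.E0HomeoPerm

open Vale.Agent.Lib.P327

theorem turingLE_iff (X Y : ℕ → Bool) : TuringLE X Y ↔ TR X Y :=
  RecursiveIn.iff_nat

theorem degT_le_iff (X Y : ℕ → Bool) : degT X ≤ degT Y ↔ TuringLE X Y :=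
  toAntisymmetrization_le_toAntisymmetrization_iff

theorem rigid (π : DegT → DegT) (hord : ∀ a b : DegT, a ≤ b ↔ π a ≤ π b)
    (F : (ℕ → Bool) ≃ₜ (ℕ → Bool))
    (hF : UniformlyE0Invariant F) (hF' : UniformlyE0Invariant F.symm)
    (hπ : ∀ X : ℕ → Bool, π (degT X) = degT (F X)) : ∀ d : DegT, π d = d := by
  have hmono : ∀ X Y, TR X Y ↔ TR (F X) (F Y) := by
    intro X Y
    rw [← turingLE_iff, ← turingLE_iff, ← degT_le_iff, ← degT_le_iff, ← hπ, ← hπ]
    exact hord _ _
  have key : ∀ X : ℕ → Bool, π (degT X) = degT X := by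
    intro X
    have h := main_E0 F hF hF' hmono X
    rw [hπ]
    exact le_antisymm ((degT_le_iff _ _).2 ((turingLE_iff _ _).2 h.1))
      ((degT_le_iff _ _).2 ((turingLE_iff _ _).2 h.2))
  intro d
  induction d using Quotient.inductionOn with
  | _ X => exact key X

/-- the homeomorphism `X ↦ X ∘ p` -/
def permHomeo (p : Equiv.Perm ℕ) : (ℕ → Bool) ≃ₜ (ℕ → Bool) where
  toFun X := fun n => X (p n)
  invFun X := fun n => X (p.symm n)
  left_inv X := by funext n; simp
  right_inv X := by funext n; simp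
  continuous_toFun := continuous_pi fun n => continuous_apply (p n)
  continuous_invFun := continuous_pi fun n => continuous_apply (p.symm n)

theorem ue0_perm (p : Equiv.Perm ℕ) :
    UniformlyE0Invariant (fun (X : ℕ → Bool) (n : ℕ) => X (p n)) := by
  intro a
  refine ⟨(Finset.range a).sup (fun m => p.symm m + 1), fun X Y h n hn => h (p n) ?_⟩
  by_contra hlt
  have hmem : p n ∈ Finset.range a := Finset.mem_range.2 (not_le.1 hlt)
  have h1 : p.symm (p n) + 1 ≤ (Finset.range a).sup (fun m => p.symm m + 1) :=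
    Finset.le_sup (f := fun m => p.symm m + 1) hmem
  rw [Equiv.symm_apply_apply] at h1
  omega

/-- the homeomorphism `X ↦ X Δ S` -/
def xorHomeo (S : ℕ → Bool) : (ℕ → Bool) ≃ₜ (ℕ → Bool) where
  toFun X := fun n => xor (X n) (S n)
  invFun X := fun n => xor (X n) (S n)
  left_inv X := by funext n; simp
  right_inv X := by funext n; simp
  continuous_toFun := continuous_pi fun n =>
    (continuous_of_discreteTopology (f := fun b : Bool => xor b (S n))).comp (continuous_apply n)
  continuous_invFun := continuous_pi fun n =>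
    (continuous_of_discreteTopology (f := fun b : Bool => xor b (S n))).comp (continuous_apply n)

theorem ue0_xor (S : ℕ → Bool) :
    UniformlyE0Invariant (fun (X : ℕ → Bool) (n : ℕ) => xor (X n) (S n)) := by
  intro a
  refine ⟨a, fun X Y h n hn => ?_⟩
  show xor (X n) (S n) = xor (Y n) (S n)
  rw [h n hn]

/-- (1) Every automorphism of the Turing degrees (a bijection `π` with `a ≤ b ↔ π a ≤ π b`) that is
induced by a homeomorphism `F` of Cantor space such that `F` and `F⁻¹` are uniformly
`E₀`-invariant is the identity.  (2) For every permutation `p` of `ℕ` the map `X ↦ X ∘ p` is such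
a homeomorphism.  (3) For every `S` the map `X ↦ X Δ S` is such a homeomorphism, and for nonempty
`S` it is not of the form `X ↦ X ∘ p`. -/
theorem result :
    (∀ π : DegT → DegT, Function.Bijective π → (∀ a b : DegT, a ≤ b ↔ π a ≤ π b) →
      (∃ F : (ℕ → Bool) ≃ₜ (ℕ → Bool), UniformlyE0Invariant F ∧ UniformlyE0Invariant F.symm ∧
        ∀ X : ℕ → Bool, π (degT X) = degT (F X)) →
      ∀ d : DegT, π d = d) ∧
    (∀ p : Equiv.Perm ℕ, ∃ F : (ℕ → Bool) ≃ₜ (ℕ → Bool), (∀ X n, F X n = X (p n)) ∧
      UniformlyE0Invariant F ∧ UniformlyE0Invariant F.symm) ∧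
    (∀ S : ℕ → Bool, ∃ F : (ℕ → Bool) ≃ₜ (ℕ → Bool), (∀ X n, F X n = xor (X n) (S n)) ∧
      UniformlyE0Invariant F ∧ UniformlyE0Invariant F.symm ∧
      ((∃ n, S n = true) → ∀ p : Equiv.Perm ℕ, ∃ X n, F X n ≠ X (p n))) := by
  refine ⟨?_, ?_, ?_⟩
  · rintro π _ hord ⟨F, hF, hF', hπ⟩
    exact rigid π hord F hF hF' hπ
  · intro p
    exact ⟨permHomeo p, fun _ _ => rfl, ue0_perm p, ue0_perm p.symm⟩
  · intro S
    refine ⟨xorHomeo S, fun _ _ => rfl, ue0_xor S, ue0_xor S, ?_⟩
    rintro ⟨n, hn⟩ p
    refine ⟨fun _ => false, n, ?_⟩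
    show xor false (S n) ≠ false
    simp [hn]

end Vale.Agent.Results.P327.E0HomeoPerm
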