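import Vale.Agent.Lib.P327.EZero

/-!
# Bi-uniformly `E₀`-invariant homeomorphisms of Cantor space that respect Turing reducibility
preserve every Turing degree (statement in Mathlib terms only)
-/

namespace Vale.Agent.Results.P327.E0HomeoSets

open Vale.Agent.Lib.P327

/-- Let `F` be a homeomorphism of Cantor space `ℕ → Bool` such that `F` and its inverse are
uniformly `E₀`-invariant, and such that `X ≤_T Y ↔ F X ≤_T F Y` for all `X`, `Y` (reducibility of
characteristic functions in the sense of Mathlib). Then `F X` is Turing equivalent to `X`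
for every `X`. -/
theorem result (F : (ℕ → Bool) ≃ₜ (ℕ → Bool))
    (hF : ∀ a : ℕ, ∃ b : ℕ, ∀ X Y : ℕ → Bool,
      (∀ n, a ≤ n → X n = Y n) → ∀ n, b ≤ n → F X n = F Y n)
    (hF' : ∀ a : ℕ, ∃ b : ℕ, ∀ X Y : ℕ → Bool,
      (∀ n, a ≤ n → X n = Y n) → ∀ n, b ≤ n → F.symm X n = F.symm Y n)
    (hT : ∀ X Y : ℕ → Bool,
      TuringReducible (fun n => Part.some (X n).toNat) (fun n => Part.some (Y n).toNat) ↔
      TuringReducible (fun n => Part.some (F X n).toNat) (fun n => Part.some (F Y n).toNat)) :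
    ∀ X : ℕ → Bool,
      TuringEquivalent (fun n => Part.some (F X n).toNat) (fun n => Part.some (X n).toNat) := by
  have hmono : ∀ X Y, TR X Y ↔ TR (F X) (F Y) := by
    intro X Y
    have h := hT X Y
    exact ⟨fun h1 => RecursiveIn.iff_nat.1 (h.1 (RecursiveIn.iff_nat.2 h1)),
      fun h1 => RecursiveIn.iff_nat.1 (h.2 (RecursiveIn.iff_nat.2 h1))⟩
  intro X
  have h := main_E0 F hF hF' hmono X
  exact ⟨RecursiveIn.iff_nat.2 h.1, RecursiveIn.iff_nat.2 h.2⟩

end Vale.Agent.Results.P327.E0HomeoSets
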